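import Vale.Agent.Lib.P038.MedianOrder

/-!
# The second neighbourhood inequality up to bad non-adjacent pairs

Non-adjacent pairs that have a convenient orientation are oriented conveniently; a suitable
median arrangement of the resulting oriented graph ends in a vertex `f` that satisfies the
second neighbourhood inequality up to an error term: every vertex `w` at distance more than two
from `f` contributes the number, minus one, of out-neighbours `x` of `f` such that the
non-adjacent pair `x`, `w` has no convenient orientation.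
-/

namespace Vale.Agent.Lib.P038

open Finset

section Good

variable {V : Type*} [Fintype V] [DecidableEq V] (adj : V → V → Prop) [DecidableRel adj]

/-- `(a, b)` is a convenient orientation: every in-neighbour of `a` has `b` within distance two -/
def conv (a b : V) : Prop := ∀ v, adj v a → adj v b ∨ ∃ u, adj v u ∧ adj u b

instance : DecidableRel (conv adj) := fun a b => by unfold conv; infer_instance

/-- the oriented graph obtained by adding a convenient orientation of every non-adjacent pair
that has one (ties broken by the injective labelling `e`) -/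
def compl (e : V → ℕ) (x y : V) : Prop :=
  adj x y ∨ (x ≠ y ∧ ¬ adj x y ∧ ¬ adj y x ∧ conv adj x y ∧ (conv adj y x → e x < e y))

instance (e : V → ℕ) : DecidableRel (compl adj e) := fun x y => by unfold compl; infer_instance

omit [Fintype V] [DecidableEq V] [DecidableRel adj] in
lemma compl_asymm (hasym : ∀ u v, adj u v → ¬ adj v u) (e : V → ℕ) :
    ∀ u v, compl adj e u v → ¬ compl adj e v u := by
  intro u v huv hvu
  rcases huv with h | ⟨hne, h1, h2, h3, h4⟩
  · rcases hvu with h' | ⟨_, h1', h2', _, _⟩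
    · exact hasym u v h h'
    · exact h2' h
  · rcases hvu with h' | ⟨_, h1', h2', h3', h4'⟩
    · exact h2 h'
    · have := h4 h3'
      have := h4' h3
      omega

/-- Every nonempty finite oriented graph has a vertex `f` whose first neighbourhood is at most
as large as its second neighbourhood plus an error term.  Every vertex `w` other than `f`
outside the first and second neighbourhoods of `f` contributes to the error term the number,
minus one, of out-neighbours `x` of `f` such that `x` and `w` are not adjacent and some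
in-neighbour `v` of `w` has `x` outside its first and second neighbourhoods. -/
theorem ssnc_bad [Nonempty V] (hasym : ∀ u v, adj u v → ¬ adj v u) :
    ∃ f : V,
      (univ.filter (fun x => adj f x)).card ≤
        (univ.filter (fun w => w ≠ f ∧ ¬ adj f w ∧ ∃ u, adj f u ∧ adj u w)).card +
        ∑ w ∈ univ.filter (fun w => w ≠ f ∧ ¬ adj f w ∧ ¬ ∃ u, adj f u ∧ adj u w),
          ((univ.filter (fun x => adj f x ∧ ¬ adj x w ∧ ¬ adj w x ∧
              ∃ v, adj v w ∧ ¬ adj v x ∧ ¬ ∃ u, adj v u ∧ adj u x)).card - 1) := by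
  classical
  set e : V → ℕ := fun x => (Fintype.equivFin V x : ℕ) with he
  have hinj : ∀ x y, e x = e y → x = y := by
    intro x y hxy
    have : Fintype.equivFin V x = Fintype.equivFin V y := Fin.ext hxy
    exact (Fintype.equivFin V).injective this
  obtain ⟨f, hf⟩ := exists_feed adj (compl adj e) (fun u v h => Or.inl h)
    (compl_asymm adj hasym e)
  refine ⟨f, ?_⟩
  have h1 : (univ.filter (fun w => isN2 adj f w)).card =
      (univ.filter (fun w => w ≠ f ∧ ¬ adj f w ∧ ∃ u, adj f u ∧ adj u w)).card := rfl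
  have h2 : ∑ w ∈ univ.erase f, PC adj (compl adj e) f w ≤
      ∑ w ∈ univ.filter (fun w => w ≠ f ∧ ¬ adj f w ∧ ¬ ∃ u, adj f u ∧ adj u w),
          ((univ.filter (fun x => adj f x ∧ ¬ adj x w ∧ ¬ adj w x ∧
              ∃ v, adj v w ∧ ¬ adj v x ∧ ¬ ∃ u, adj v u ∧ adj u x)).card - 1) := by
    rw [Finset.sum_filter]
    refine le_trans ?_ (Finset.sum_le_sum_of_subset (Finset.subset_univ (univ.erase f)))
    apply Finset.sum_le_sum
    intro w hw
    have hwf : w ≠ f := Finset.ne_of_mem_erase hw
    unfold PC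
    split_ifs with hc hc'
    · have hnot : ¬ ∃ u, adj f u ∧ adj u w := by
        rintro ⟨u, hu1, hu2⟩
        exact hc.2 ⟨hwf, hc.1, u, hu1, hu2⟩
      -- no out-neighbour of `f` dominates `w` in the completion
      have hA : (univ.filter (fun x => adj f x ∧ compl adj e x w)).card = 0 := by
        rw [Finset.card_eq_zero, Finset.filter_eq_empty_iff]
        rintro x _ ⟨hfx, hxw⟩
        rcases hxw with h | ⟨_, _, _, h3, _⟩
        · exact hnot ⟨x, hfx, h⟩
        · rcases h3 f hfx with h | h
          · exact hc.1 h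
          · exact hnot h
      rw [hA, Nat.mul_zero, Nat.zero_add]
      apply Nat.sub_le_sub_right
      apply Finset.card_le_card
      intro x hx
      simp only [Finset.mem_filter, Finset.mem_univ, true_and] at hx ⊢
      obtain ⟨hfx, hxw, hwx⟩ := hx
      have hxw' : ¬ adj x w := fun h => hxw (Or.inl h)
      have hwx' : ¬ adj w x := fun h => hwx (Or.inl h)
      have hne : x ≠ w := by
        rintro rfl
        exact hc.1 hfx
      have hnc : ¬ conv adj w x := by
        intro hcw
        by_cases hcx : conv adj x w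
        · have hlt1 : ¬ e x < e w := fun hlt =>
            hxw (Or.inr ⟨hne, hxw', hwx', hcx, fun _ => hlt⟩)
          have hlt2 : ¬ e w < e x := fun hlt =>
            hwx (Or.inr ⟨hne.symm, hwx', hxw', hcw, fun _ => hlt⟩)
          exact hne (hinj x w (by omega))
        · exact hwx (Or.inr ⟨hne.symm, hwx', hxw', hcw, fun h => absurd h hcx⟩)
      have hex : ∃ v, adj v w ∧ ¬ adj v x ∧ ¬ ∃ u, adj v u ∧ adj u x := by
        unfold conv at hnc
        push Not at hnc
        obtain ⟨v, hv1, hv2, hv3⟩ := hnc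
        exact ⟨v, hv1, hv2, fun ⟨u, hu1, hu2⟩ => hv3 u hu1 hu2⟩
      exact ⟨hfx, hxw', hwx', hex⟩
    · exfalso
      apply hc'
      refine ⟨hwf, hc.1, ?_⟩
      rintro ⟨u, hu1, hu2⟩
      exact hc.2 ⟨hwf, hc.1, u, hu1, hu2⟩
    · exact Nat.zero_le _
    · exact Nat.zero_le _
  rw [h1] at hf
  exact le_trans hf (Nat.add_le_add_left h2 _)

/-- Seymour's second neighbourhood conjecture holds for every oriented graph in which the
non-adjacent pairs without convenient orientation form a matching. -/
theorem ssnc_bad_matching [Nonempty V] (hasym : ∀ u v, adj u v → ¬ adj v u)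
    (hbad : ∀ w x y : V,
      (x ≠ w ∧ ¬ adj x w ∧ ¬ adj w x ∧
        (∃ v, adj v x ∧ ¬ adj v w ∧ ¬ ∃ u, adj v u ∧ adj u w) ∧
        (∃ v, adj v w ∧ ¬ adj v x ∧ ¬ ∃ u, adj v u ∧ adj u x)) →
      (y ≠ w ∧ ¬ adj y w ∧ ¬ adj w y ∧
        (∃ v, adj v y ∧ ¬ adj v w ∧ ¬ ∃ u, adj v u ∧ adj u w) ∧
        (∃ v, adj v w ∧ ¬ adj v y ∧ ¬ ∃ u, adj v u ∧ adj u y)) → x = y) :
    ∃ f : V,
      (univ.filter (fun x => adj f x)).card ≤
        (univ.filter (fun w => w ≠ f ∧ ¬ adj f w ∧ ∃ u, adj f u ∧ adj u w)).card := by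
  obtain ⟨f, hf⟩ := ssnc_bad adj hasym
  refine ⟨f, ?_⟩
  have hzero : ∑ w ∈ univ.filter (fun w => w ≠ f ∧ ¬ adj f w ∧ ¬ ∃ u, adj f u ∧ adj u w),
          ((univ.filter (fun x => adj f x ∧ ¬ adj x w ∧ ¬ adj w x ∧
              ∃ v, adj v w ∧ ¬ adj v x ∧ ¬ ∃ u, adj v u ∧ adj u x)).card - 1) = 0 := by
    apply Finset.sum_eq_zero
    intro w hw
    simp only [Finset.mem_filter, Finset.mem_univ, true_and] at hw
    obtain ⟨hwf, hfw, hnot⟩ := hw
    have hle : (univ.filter (fun x => adj f x ∧ ¬ adj x w ∧ ¬ adj w x ∧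
        ∃ v, adj v w ∧ ¬ adj v x ∧ ¬ ∃ u, adj v u ∧ adj u x)).card ≤ 1 := by
      rw [Finset.card_le_one]
      intro a ha b hb
      simp only [Finset.mem_filter, Finset.mem_univ, true_and] at ha hb
      have hbadp : ∀ x : V, (adj f x ∧ ¬ adj x w ∧ ¬ adj w x ∧
          ∃ v, adj v w ∧ ¬ adj v x ∧ ¬ ∃ u, adj v u ∧ adj u x) →
          (x ≠ w ∧ ¬ adj x w ∧ ¬ adj w x ∧
            (∃ v, adj v x ∧ ¬ adj v w ∧ ¬ ∃ u, adj v u ∧ adj u w) ∧
            (∃ v, adj v w ∧ ¬ adj v x ∧ ¬ ∃ u, adj v u ∧ adj u x)) := by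
        intro x hx
        refine ⟨?_, hx.2.1, hx.2.2.1, ⟨f, hx.1, hfw, hnot⟩, hx.2.2.2⟩
        rintro rfl
        exact hfw hx.1
      exact hbad w a b (hbadp a ha) (hbadp b hb)
    omega
  rw [hzero, Nat.add_zero] at hf
  exact hf

end Good

end Vale.Agent.Lib.P038
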