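import Mathlib

/-!
# Local median orders of oriented graphs

A list `L` of vertices is *locally median* (`LM`) if no vertex `b` of the list has more
out-neighbours than in-neighbours in a block `S` of consecutive vertices standing right
before it.  Every list can be rearranged into such a list (maximise the number of forward arcs).
The last vertex of such an arrangement of all vertices satisfies the second neighbourhood
inequality up to an explicit error term.
-/

namespace Vale.Agent.Lib.P038

open Finset

section ListPart

variable {V : Type*} (adj : V → V → Prop) [DecidableRel adj]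

/-- number of arcs from an element of `l1` to an element of `l2` -/
def cross (l1 l2 : List V) : ℕ := (l1.map (fun x => l2.countP (fun y => adj x y))).sum

/-- number of forward arcs of a list -/
def fwd : List V → ℕ
  | [] => 0
  | a :: l => l.countP (fun y => adj a y) + fwd l

lemma cross_cons_left (a : V) (l1 l2 : List V) :
    cross adj (a :: l1) l2 = l2.countP (fun y => adj a y) + cross adj l1 l2 := by
  simp [cross]

lemma cross_cons_right (l1 : List V) (b : V) (l2 : List V) :
    cross adj l1 (b :: l2) = l1.countP (fun x => adj x b) + cross adj l1 l2 := by
  induction l1 with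
  | nil => simp [cross]
  | cons a l ih =>
    rw [cross_cons_left, cross_cons_left, ih, List.countP_cons, List.countP_cons]
    by_cases h : adj a b <;> simp [h] <;> omega

lemma cross_perm_right (l1 : List V) {l2 l2' : List V} (h : l2.Perm l2') :
    cross adj l1 l2 = cross adj l1 l2' := by
  induction l1 with
  | nil => simp [cross]
  | cons a l ih => rw [cross_cons_left, cross_cons_left, ih, h.countP_eq]

lemma fwd_append (l1 l2 : List V) :
    fwd adj (l1 ++ l2) = fwd adj l1 + fwd adj l2 + cross adj l1 l2 := by
  induction l1 with
  | nil => simp [fwd, cross]
  | cons a l ih =>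
    simp only [List.cons_append, fwd, cross_cons_left, List.countP_append, ih]
    omega

lemma fwd_move (P S : List V) (b : V) (Q : List V) :
    fwd adj (P ++ b :: (S ++ Q)) + S.countP (fun s => adj s b)
      = fwd adj (P ++ S ++ b :: Q) + S.countP (fun s => adj b s) := by
  have hperm : cross adj P (S ++ b :: Q) = cross adj P (b :: (S ++ Q)) :=
    cross_perm_right adj P List.perm_middle
  rw [List.append_assoc, fwd_append, fwd_append adj P (S ++ b :: Q), fwd_append adj S (b :: Q),
    hperm, cross_cons_right adj S b Q]
  simp only [fwd, List.countP_append, fwd_append adj S Q]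
  omega

/-- locally median lists -/
def LM (L : List V) : Prop :=
  ∀ (P S : List V) (b : V) (Q : List V), L = P ++ S ++ b :: Q →
    S.countP (fun s => adj b s) ≤ S.countP (fun s => adj s b)

/-- An arrangement of `l0` with the largest number of forward arcs and, among those, with the
least value of an arbitrary potential `Ψ`. -/
lemma exists_median (l0 : List V) (Ψ : List V → ℕ) :
    ∃ L : List V, L.Perm l0 ∧ (∀ L' : List V, L'.Perm l0 → fwd adj L' ≤ fwd adj L) ∧
      (∀ L' : List V, L'.Perm l0 → fwd adj L' = fwd adj L → Ψ L ≤ Ψ L') := by
  classical
  obtain ⟨L1, hL1, hmax⟩ := Finset.exists_max_image (l0.permutations.toFinset) (fwd adj)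
    ⟨l0, by simp⟩
  obtain ⟨L, hL, hmin⟩ := Finset.exists_min_image
    ((l0.permutations.toFinset).filter (fun L' => fwd adj L' = fwd adj L1)) Ψ
    ⟨L1, by simpa using hL1⟩
  simp only [Finset.mem_filter, List.mem_toFinset, List.mem_permutations] at hL hmin hmax
  refine ⟨L, hL.1, ?_, ?_⟩
  · intro L' hL'
    rw [hL.2]
    exact hmax L' hL'
  · intro L' hL' heq
    exact hmin L' ⟨hL', heq.trans hL.2⟩

lemma LM_of_max (l0 L : List V) (hL : L.Perm l0)
    (hmax : ∀ L' : List V, L'.Perm l0 → fwd adj L' ≤ fwd adj L) : LM adj L := by
  intro P S b Q hLeq
  by_contra hlt
  have hlt' := not_le.1 hlt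
  have hperm : (P ++ b :: (S ++ Q)).Perm l0 := by
    refine List.Perm.trans ?_ hL
    rw [hLeq, List.append_assoc]
    exact List.Perm.append_left P List.perm_middle.symm
  have h1 := hmax (P ++ b :: (S ++ Q)) hperm
  have h2 := fwd_move adj P S b Q
  rw [← hLeq] at h2
  omega

end ListPart

section Main

variable {V : Type*} [Fintype V] [DecidableEq V] (adj : V → V → Prop) [DecidableRel adj]
  (adjP : V → V → Prop) [DecidableRel adjP]

/-- `w` is at distance exactly two from `f` -/
def isN2 (f w : V) : Prop := w ≠ f ∧ ¬ adj f w ∧ ∃ u, adj f u ∧ adj u w

instance (f w : V) : Decidable (isN2 adj f w) := by unfold isN2; infer_instance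

/-- `w` is neither an out-neighbour of `f` nor at distance two from `f` -/
def farP (f w : V) : Prop := ¬ adj f w ∧ ¬ isN2 adj f w

instance (f w : V) : Decidable (farP adj f w) := by unfold farP; infer_instance

/-- for a vertex `w` that is neither `f`-dominated nor at distance two from `f`: twice the
number of out-neighbours of `f` that dominate `w` in the larger digraph, plus the number of
out-neighbours of `f` that are not adjacent to `w` in the larger digraph, minus one -/
def PC (f w : V) : ℕ :=
  if farP adj f w then
    2 * (univ.filter (fun x => adj f x ∧ adjP x w)).card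
      + (univ.filter (fun x => adj f x ∧ ¬ adjP x w ∧ ¬ adjP w x)).card - 1
  else 0

lemma countP_le_card_filter (S : List V) (hS : S.Nodup) (p : V → Prop) [DecidablePred p] :
    S.countP (fun x => p x) ≤ (univ.filter p).card := by
  rw [List.countP_eq_length_filter]
  have hnd : (S.filter (fun x => decide (p x))).Nodup := hS.filter _
  rw [← List.toFinset_card_of_nodup hnd]
  apply Finset.card_le_card
  intro x hx
  simp only [List.mem_toFinset, List.mem_filter, decide_eq_true_eq] at hx
  simp [hx.2]

variable (hsub : ∀ u v, adj u v → adjP u v) (hasym : ∀ u v, adjP u v → ¬ adjP v u)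

include hsub hasym in
lemma acc (f : V) (L0 : List V) (hnd : L0.Nodup) (hLM : LM adjP (L0 ++ [f]))
    (hSLM : ∀ (P S : List V) (w : V) (Q : List V), L0 = P ++ S ++ w :: Q → S ≠ [] →
      farP adj f w → (∀ y ∈ S, ¬ farP adj f y) →
      S.countP (fun s => adjP w s) < S.countP (fun s => adjP s w)) :
    ∀ (r S P : List V), P ++ S ++ r = L0 → (∀ y ∈ S, ¬ farP adj f y) →
      (S ++ r).countP (fun x => adj f x) ≤
        S.countP (fun x => ¬ adj f x) + r.countP (fun w => isN2 adj f w)
          + (r.map (PC adj adjP f)).sum := by
  intro r
  induction r with
  | nil =>
    intro S P h _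
    have h1 := hLM P S f [] (by rw [← h]; simp)
    have h0 : S.countP (fun x => adj f x) ≤ S.countP (fun x => adjP f x) := by
      apply List.countP_mono_left
      intro x _ hx
      simp only [decide_eq_true_eq] at hx ⊢
      exact hsub f x hx
    have h2 : S.countP (fun x => adjP x f) ≤ S.countP (fun x => ¬ adj f x) := by
      apply List.countP_mono_left
      intro x _ hx
      simp only [decide_eq_true_eq] at hx ⊢
      exact fun hfx => hasym x f hx (hsub f x hfx)
    simp only [List.append_nil, List.countP_nil, List.map_nil, List.sum_nil, add_zero]
    exact le_trans h0 (le_trans h1 h2)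
  | cons w r' ih =>
    intro S P h hSfar
    by_cases h1 : adj f w
    · -- `w` is an out-neighbour of `f`
      have hfar' : ∀ y ∈ S ++ [w], ¬ farP adj f y := by
        intro y hy
        rcases List.mem_append.1 hy with hy | hy
        · exact hSfar y hy
        · rw [List.mem_singleton.1 hy]
          exact fun hfar => hfar.1 h1
      have := ih (S ++ [w]) P (by rw [← h]; simp) hfar'
      simp only [List.append_assoc, List.singleton_append, List.countP_append, List.countP_cons,
        List.countP_nil, List.map_cons, List.sum_cons, h1, not_true_eq_false, decide_false,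
        decide_true] at this ⊢
      simp only [Bool.false_eq_true, if_false, if_true] at this ⊢
      omega
    · by_cases h2 : isN2 adj f w
      · -- `w` is at distance two
        have hfar' : ∀ y ∈ S ++ [w], ¬ farP adj f y := by
          intro y hy
          rcases List.mem_append.1 hy with hy | hy
          · exact hSfar y hy
          · rw [List.mem_singleton.1 hy]
            exact fun hfar => hfar.2 h2
        have := ih (S ++ [w]) P (by rw [← h]; simp) hfar'
        simp only [List.append_assoc, List.singleton_append, List.countP_append, List.countP_cons,
          List.countP_nil, List.map_cons, List.sum_cons, h1, h2, not_false_eq_true, decide_false,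
          decide_true] at this ⊢
        simp only [Bool.false_eq_true, if_false, if_true] at this ⊢
        omega
      · -- `w` is far from `f`
        have hwfar : farP adj f w := ⟨h1, h2⟩
        have hS : S.Nodup := by
          rw [← h] at hnd
          exact (List.nodup_append.1 (List.nodup_append.1 hnd).1).2.1
        have hfb : S = [] ∨ S.countP (fun s => adjP w s) < S.countP (fun s => adjP s w) := by
          by_cases hSe : S = []
          · exact Or.inl hSe
          · exact Or.inr (hSLM P S w r' h.symm hSe hwfar hSfar)
        -- in-neighbours of `w` in `S`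
        have hin : S.countP (fun x => adjP x w) ≤
            S.countP (fun x => ¬ adj f x) + S.countP (fun x => adj f x ∧ adjP x w) := by
          have key : ∀ (T : List V), T.countP (fun x => adjP x w) ≤
              T.countP (fun x => ¬ adj f x) + T.countP (fun x => adj f x ∧ adjP x w) := by
            intro T
            induction T with
            | nil => simp
            | cons a T ihT =>
              simp only [List.countP_cons, decide_eq_true_eq]
              split_ifs <;> first | omega | (exfalso; tauto)
          exact key S
        -- out-neighbours of `f` in `S`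
        have hout : S.countP (fun x => adj f x) ≤
            S.countP (fun x => adjP w x) + S.countP (fun x => adj f x ∧ adjP x w)
              + S.countP (fun x => adj f x ∧ ¬ adjP x w ∧ ¬ adjP w x) := by
          have key : ∀ (T : List V), T.countP (fun x => adj f x) ≤
              T.countP (fun x => adjP w x) + T.countP (fun x => adj f x ∧ adjP x w)
                + T.countP (fun x => adj f x ∧ ¬ adjP x w ∧ ¬ adjP w x) := by
            intro T
            induction T with
            | nil => simp
            | cons a T ihT =>
              simp only [List.countP_cons, decide_eq_true_eq]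
              split_ifs <;> first | omega | (exfalso; tauto)
          exact key S
        have hpcA := countP_le_card_filter S hS (fun x => adj f x ∧ adjP x w)
        have hpcB := countP_le_card_filter S hS (fun x => adj f x ∧ ¬ adjP x w ∧ ¬ adjP w x)
        have hpc : PC adj adjP f w = 2 * (univ.filter (fun x => adj f x ∧ adjP x w)).card
            + (univ.filter (fun x => adj f x ∧ ¬ adjP x w ∧ ¬ adjP w x)).card - 1 := by
          simp only [PC, hwfar, if_true]
        have hrest := ih [] (P ++ S ++ [w]) (by rw [← h]; simp) (by simp)
        simp only [List.nil_append, List.countP_nil, zero_add] at hrest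
        simp only [List.countP_append, List.countP_cons, List.map_cons, List.sum_cons, h1, h2,
          decide_false] at hrest ⊢
        simp only [Bool.false_eq_true, if_false] at hrest ⊢
        rcases hfb with hSe | hfb
        · subst hSe
          simp only [List.countP_nil] at *
          omega
        · omega

include hsub hasym in
/-- The second neighbourhood inequality with an error term, for the last vertex of a suitable
median arrangement (with respect to the larger digraph) of all vertices. -/
theorem exists_feed [Nonempty V] :
    ∃ f : V, (univ.filter (fun x => adj f x)).card ≤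
      (univ.filter (fun w => isN2 adj f w)).card + ∑ w ∈ univ.erase f, PC adj adjP f w := by
  have hasym' : ∀ u v, adj u v → ¬ adj v u := fun u v h h' => hasym u v (hsub u v h) (hsub v u h')
  set a0 : V := Classical.arbitrary V with ha0
  obtain ⟨L, hperm, hmax, hmin⟩ := exists_median adjP (univ : Finset V).toList
    (fun L' => fwd (fun _ z => farP adj (L'.getLastD a0) z) L')
  have hLM : LM adjP L := LM_of_max adjP _ L hperm hmax
  have hLnd : L.Nodup := hperm.nodup_iff.2 (Finset.nodup_toList _)
  have hmem : ∀ x : V, x ∈ L := fun x => hperm.mem_iff.2 (by simp)
  have hne : L ≠ [] := by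
    intro h
    have := hmem (Classical.arbitrary V)
    simp [h] at this
  set f := L.getLast hne with hf
  set L0 := L.dropLast with hL0
  have hL : L0 ++ [f] = L := List.dropLast_append_getLast hne
  have hnd2 : (L0 ++ [f]).Nodup := hL ▸ hLnd
  have hL0nd : L0.Nodup := (List.nodup_append.1 hnd2).1
  have hfL0 : f ∉ L0 := by
    intro hmem0
    have := (List.nodup_append.1 hnd2).2.2 f hmem0 f (by simp)
    exact this rfl
  have hL0mem : ∀ x, x ≠ f → x ∈ L0 := by
    intro x hx
    have := hmem x
    rw [← hL] at this
    simp only [List.mem_append, List.mem_singleton] at this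
    tauto
  refine ⟨f, ?_⟩
  -- strictness at far vertices
  have hSLM : ∀ (P S : List V) (w : V) (Q : List V), L0 = P ++ S ++ w :: Q → S ≠ [] →
      farP adj f w → (∀ y ∈ S, ¬ farP adj f y) →
      S.countP (fun s => adjP w s) < S.countP (fun s => adjP s w) := by
    intro P S w Q hL0eq hSne hwfar hSfar
    have hLeq : L = P ++ S ++ w :: (Q ++ [f]) := by
      rw [← hL, hL0eq]; simp
    have hle := hLM P S w (Q ++ [f]) hLeq
    by_contra hlt
    have heq : S.countP (fun s => adjP w s) = S.countP (fun s => adjP s w) := by omega
    have hperm' : (P ++ w :: (S ++ (Q ++ [f]))).Perm (univ : Finset V).toList := by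
      refine List.Perm.trans ?_ hperm
      rw [hLeq, List.append_assoc]
      exact List.Perm.append_left P List.perm_middle.symm
    have hmv := fwd_move adjP P S w (Q ++ [f])
    rw [← hLeq] at hmv
    have hfwd : fwd adjP (P ++ w :: (S ++ (Q ++ [f]))) = fwd adjP L := by omega
    have hΨ := hmin _ hperm' hfwd
    have hlast1 : L.getLastD a0 = f := by rw [← hL, List.getLastD_concat]
    have hlast2 : (P ++ w :: (S ++ (Q ++ [f]))).getLastD a0 = f := by
      have : P ++ w :: (S ++ (Q ++ [f])) = (P ++ w :: (S ++ Q)) ++ [f] := by simp
      rw [this, List.getLastD_concat]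
    simp only [hlast1, hlast2] at hΨ
    have hmv2 := fwd_move (fun _ z => farP adj f z) P S w (Q ++ [f])
    rw [← hLeq] at hmv2
    have hc1 : S.countP (fun _ => decide (farP adj f w)) = S.length := by
      rw [List.countP_eq_length]
      intro _ _
      simp [hwfar]
    have hc2 : S.countP (fun s => decide (farP adj f s)) = 0 := by
      rw [List.countP_eq_zero]
      intro y hy
      simp [hSfar y hy]
    rw [hc1, hc2] at hmv2
    have hlen : 0 < S.length := List.length_pos_of_ne_nil hSne
    omega
  have hacc := acc adj adjP hsub hasym f L0 hL0nd (hL ▸ hLM) hSLM L0 [] [] (by simp) (by simp)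
  simp only [List.nil_append, List.countP_nil, zero_add] at hacc
  -- the left-hand side
  have hlhs : (univ.filter (fun x => adj f x)).card ≤ L0.countP (fun x => adj f x) := by
    rw [List.countP_eq_length_filter]
    have hnd' : (L0.filter (fun x => decide (adj f x))).Nodup := hL0nd.filter _
    rw [← List.toFinset_card_of_nodup hnd']
    apply Finset.card_le_card
    intro x hx
    simp only [Finset.mem_filter, Finset.mem_univ, true_and] at hx
    simp only [List.mem_toFinset, List.mem_filter, decide_eq_true_eq]
    refine ⟨hL0mem x ?_, hx⟩
    rintro rfl
    exact hasym' _ _ hx hx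
  have hmid : L0.countP (fun w => isN2 adj f w) ≤ (univ.filter (fun w => isN2 adj f w)).card :=
    countP_le_card_filter L0 hL0nd _
  have hsum : (L0.map (PC adj adjP f)).sum ≤ ∑ w ∈ univ.erase f, PC adj adjP f w := by
    rw [← List.sum_toFinset _ hL0nd]
    apply Finset.sum_le_sum_of_subset
    intro x hx
    simp only [List.mem_toFinset] at hx
    simp only [Finset.mem_erase, Finset.mem_univ, and_true]
    rintro rfl
    exact hfL0 hx
  omega

end Main

end Vale.Agent.Lib.P038
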